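import Vale.Agent.P170.Main

/-!
# The satisfiability threshold conjecture: random k-SAT has a limiting threshold for every k ≥ 3
-/

namespace Vale.Agent.Results.P170.SatThreshold

open Filter Topology

/-- For every `k ≥ 3` there is a constant `α > 0` such that, as `n → ∞`, the probability that a
uniform random `k`-SAT formula with `n` variables and `⌊c n⌋` clauses is satisfiable tends to
`1` if `0 ≤ c < α` and to `0` if `c > α`. -/
theorem result : ∀ k : ℕ, 3 ≤ k → ∃ α : ℝ, 0 < α ∧
    (∀ c : ℝ, 0 ≤ c → c < α →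
      Tendsto (fun n : ℕ => Vale.P170.probSat k n ⌊c * n⌋₊) atTop (𝓝 1)) ∧
    (∀ c : ℝ, α < c →
      Tendsto (fun n : ℕ => Vale.P170.probSat k n ⌊c * n⌋₊) atTop (𝓝 0)) :=
  fun k hk => Vale.P170.probSat_threshold k hk

end Vale.Agent.Results.P170.SatThreshold
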